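import Mathlib

/-! Uniform matroids from a sign pattern (Low / middle / High). -/

open Set

namespace Vale.Agent.P068

variable {α : Type*}

theorem exists_delta (α : Type*) :
    ∃ δ : Set α → ℤ, ∀ X e, e ∉ X → δ (insert e X) = δ X + 1 := by
  classical
  let R : Set α → Set α := fun X => Classical.epsilon (fun R => (X \ R).Finite ∧ (R \ X).Finite)
  have hR : ∀ X, (X \ R X).Finite ∧ (R X \ X).Finite := fun X =>
    Classical.epsilon_spec (p := fun R => (X \ R).Finite ∧ (R \ X).Finite) ⟨X, by simp, by simp⟩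
  refine ⟨fun X => ((X \ R X).ncard : ℤ) - ((R X \ X).ncard : ℤ), fun X e he => ?_⟩
  have hRe : R (insert e X) = R X := by
    have : (fun R => (insert e X \ R).Finite ∧ (R \ insert e X).Finite)
        = (fun R : Set α => (X \ R).Finite ∧ (R \ X).Finite) := by
      funext S
      apply propext
      constructor
      · rintro ⟨h1, h2⟩
        refine ⟨h1.subset (fun x hx => ⟨Or.inr hx.1, hx.2⟩), (h2.insert e).subset ?_⟩
        intro x hx
        by_cases hxe : x = e
        · exact Or.inl hxe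
        · exact Or.inr ⟨hx.1, fun h => h.elim hxe hx.2⟩
      · rintro ⟨h1, h2⟩
        refine ⟨(h1.insert e).subset ?_, h2.subset (fun x hx => ⟨hx.1, fun h => hx.2 (Or.inr h)⟩)⟩
        intro x hx
        rcases hx.1 with h | h
        · exact Or.inl h
        · exact Or.inr ⟨h, hx.2⟩
    simp only [R, this]
  simp only [hRe]
  obtain ⟨h1, h2⟩ := hR X
  by_cases heR : e ∈ R X
  · have e1 : insert e X \ R X = X \ R X := by
      ext x; constructor
      · rintro ⟨h | h, hx⟩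
        · exact absurd (h ▸ heR) hx
        · exact ⟨h, hx⟩
      · rintro ⟨h, hx⟩; exact ⟨Or.inr h, hx⟩
    have e2 : R X \ X = insert e (R X \ insert e X) := by
      ext x; constructor
      · rintro ⟨h, hx⟩
        by_cases hxe : x = e
        · exact Or.inl hxe
        · exact Or.inr ⟨h, fun h' => h'.elim hxe hx⟩
      · rintro (h | ⟨h, hx⟩)
        · exact h ▸ ⟨heR, he⟩
        · exact ⟨h, fun h' => hx (Or.inr h')⟩
    have h3 : (R X \ insert e X).Finite :=
      h2.subset (fun x hx => ⟨hx.1, fun h => hx.2 (Or.inr h)⟩)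
    have e3 : (R X \ X).ncard = (R X \ insert e X).ncard + 1 := by
      rw [e2, Set.ncard_insert_of_notMem (by simp) h3]
    rw [e1, e3]; push_cast; ring
  · have e1 : insert e X \ R X = insert e (X \ R X) := by
      ext x; constructor
      · rintro ⟨h | h, hx⟩
        · exact Or.inl h
        · exact Or.inr ⟨h, hx⟩
      · rintro (h | ⟨h, hx⟩)
        · exact ⟨Or.inl h, h ▸ heR⟩
        · exact ⟨Or.inr h, hx⟩
    have e2 : R X \ insert e X = R X \ X := by
      ext x; constructor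
      · rintro ⟨h, hx⟩; exact ⟨h, fun h' => hx (Or.inr h')⟩
      · rintro ⟨h, hx⟩; exact ⟨h, fun h' => h'.elim (fun h'' => heR (h'' ▸ h)) hx⟩
    rw [e1, e2, Set.ncard_insert_of_notMem (fun h => he h.1) h1]; push_cast; ring

theorem delta_union {δ : Set α → ℤ} (hδ : ∀ X e, e ∉ X → δ (insert e X) = δ X + 1)
    (X : Set α) {F : Set α} (hF : F.Finite) (hd : Disjoint X F) :
    δ (X ∪ F) = δ X + F.ncard := by
  induction F, hF using Set.Finite.induction_on with
  | empty => simp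
  | @insert a s ha hs ih =>
    have hd' : Disjoint X s := hd.mono_right (subset_insert _ _)
    have haX : a ∉ X := fun h => (Set.disjoint_left.mp hd) h (mem_insert _ _)
    rw [Set.union_insert, hδ _ _ (by simp [ha, haX]), ih hd', Set.ncard_insert_of_notMem ha hs]
    push_cast; ring

structure Sign (E : Set α) where
  Low : Set α → Prop
  High : Set α → Prop
  not_both : ∀ X, Low X → High X → False
  low_mono : ∀ X Y, X ⊆ Y → Low Y → Low X
  high_mono : ∀ X Y, X ⊆ Y → High X → High Y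
  low_ins : ∀ X e, Low X → Low (insert e X)
  high_ins : ∀ X e, High (insert e X) → High X
  up : ∀ X Y, X ⊆ Y → ¬ Low X → (Y \ X).Infinite → High Y
  down : ∀ X Y, X ⊆ Y → ¬ High Y → (Y \ X).Infinite → Low X
  mid : ∀ L U, L ⊆ U → U ⊆ E → Low L → High U → ∃ Z, L ⊆ Z ∧ Z ⊆ U ∧ ¬ Low Z ∧ ¬ High Z
  low_empty : Low ∅
  high_ground : High E

namespace Sign

variable {E : Set α} (s : Sign E)

theorem low_union {X F : Set α} (hF : F.Finite) (h : s.Low X) : s.Low (X ∪ F) := by
  induction F, hF using Set.Finite.induction_on with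
  | empty => simpa using h
  | @insert a t _ _ ih => rw [Set.union_insert]; exact s.low_ins _ _ ih

theorem high_union {X F : Set α} (hF : F.Finite) (h : s.High (X ∪ F)) : s.High X := by
  induction F, hF using Set.Finite.induction_on with
  | empty => simpa using h
  | @insert a t _ _ ih => rw [Set.union_insert] at h; exact ih (s.high_ins _ _ h)

theorem low_of_fin {X Y : Set α} (h : s.Low X) (hf : (Y \ X).Finite) : s.Low Y :=
  s.low_mono _ _ (fun x hx => by
    by_cases hX : x ∈ X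
    · exact Or.inl hX
    · exact Or.inr ⟨hx, hX⟩) (s.low_union hf h)

theorem high_of_fin {X Y : Set α} (h : s.High Y) (hf : (Y \ X).Finite) : s.High X :=
  s.high_union hf (s.high_mono _ _ (fun x hx => by
    by_cases hX : x ∈ X
    · exact Or.inl hX
    · exact Or.inr ⟨hx, hX⟩) h)

/-- Adding `k` elements of a big enough set. -/
theorem add_some {δ : Set α → ℤ} (hδ : ∀ X e, e ∉ X → δ (insert e X) = δ X + 1)
    {I X : Set α} (hIX : I ⊆ X) (hI : ¬ s.Low I) (hI' : ¬ s.High I) (h0 : δ I ≤ 0)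
    (hX : s.High X ∨ 0 < δ X) :
    ∃ B, I ⊆ B ∧ B ⊆ X ∧ ¬ s.Low B ∧ ¬ s.High B ∧ δ B = 0 := by
  obtain ⟨k, hk⟩ : ∃ k : ℕ, δ I = -k := ⟨(-δ I).toNat, by omega⟩
  have hex : ∃ F, F ⊆ X \ I ∧ F.Finite ∧ F.ncard = k := by
    by_cases hf : (X \ I).Finite
    · have hXh : ¬ s.High X := fun h => hI' (s.high_of_fin h hf)
      have hpos : 0 < δ X := hX.resolve_left hXh
      have := delta_union hδ I hf disjoint_sdiff_right
      rw [Set.union_diff_cancel hIX] at this
      obtain ⟨F, hF, hFk⟩ := Set.exists_subset_card_eq (s := X \ I) (n := k) (by omega)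
      exact ⟨F, hF, hf.subset hF, hFk⟩
    · obtain ⟨F, hF, hFk⟩ := Set.Infinite.exists_subset_ncard_eq hf k
      exact ⟨F, hF, hFk.1, hFk.2⟩
  obtain ⟨F, hF, hFf, hFk⟩ := hex
  have hd : Disjoint I F := Set.disjoint_left.mpr (fun x hx hxF => (hF hxF).2 hx)
  refine ⟨I ∪ F, subset_union_left, union_subset hIX (fun x hx => (hF hx).1),
    fun h => hI (s.low_mono _ _ subset_union_left h), fun h => hI' (s.high_union hFf h), ?_⟩
  rw [delta_union hδ I hFf hd]; omega

theorem remove_some {δ : Set α → ℤ} (hδ : ∀ X e, e ∉ X → δ (insert e X) = δ X + 1)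
    {I Z : Set α} (hIZ : I ⊆ Z) (hI : s.Low I) (hZ : ¬ s.Low Z) (hZ' : ¬ s.High Z)
    (h0 : 0 < δ Z) :
    ∃ B, I ⊆ B ∧ B ⊆ Z ∧ ¬ s.Low B ∧ ¬ s.High B ∧ δ B = 0 := by
  obtain ⟨k, hk⟩ : ∃ k : ℕ, δ Z = k := ⟨(δ Z).toNat, by omega⟩
  have hf : (Z \ I).Infinite := fun hf => hZ (s.low_of_fin hI hf)
  obtain ⟨F, hF, hFf, hFk⟩ := Set.Infinite.exists_subset_ncard_eq hf k
  have hu : (Z \ F) ∪ F = Z := Set.diff_union_of_subset (fun x hx => (hF hx).1)
  refine ⟨Z \ F, fun x hx => ⟨hIZ hx, fun hxF => (hF hxF).2 hx⟩, diff_subset,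
    fun h => hZ (hu ▸ s.low_union hFf h), fun h => hZ' (s.high_mono _ _ diff_subset h), ?_⟩
  have := delta_union hδ (Z \ F) hFf disjoint_sdiff_left
  rw [hu] at this; omega

theorem exists_base {δ : Set α → ℤ} (hδ : ∀ X e, e ∉ X → δ (insert e X) = δ X + 1)
    {I X : Set α} (hIX : I ⊆ X) (hXE : X ⊆ E) (hI : s.Low I ∨ (¬ s.High I ∧ δ I ≤ 0))
    (hX : ¬ (s.Low X ∨ (¬ s.High X ∧ δ X ≤ 0))) :
    ∃ B, I ⊆ B ∧ B ⊆ X ∧ ¬ s.Low B ∧ ¬ s.High B ∧ δ B = 0 := by
  have hX1 : ¬ s.Low X := fun h => hX (Or.inl h)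
  have hX2 : s.High X ∨ 0 < δ X := by
    by_cases h : s.High X
    · exact Or.inl h
    · exact Or.inr (lt_of_not_ge fun h' => hX (Or.inr ⟨h, h'⟩))
  by_cases hl : s.Low I
  · obtain ⟨Z, hIZ, hZX, hZ, hZ'⟩ : ∃ Z, I ⊆ Z ∧ Z ⊆ X ∧ ¬ s.Low Z ∧ ¬ s.High Z := by
      by_cases h : s.High X
      · exact s.mid _ _ hIX hXE hl h
      · exact ⟨X, hIX, subset_rfl, hX1, h⟩
    by_cases h0 : δ Z ≤ 0
    · obtain ⟨B, h1, h2, h3⟩ := s.add_some hδ hZX hZ hZ' h0 hX2
      exact ⟨B, hIZ.trans h1, h2, h3⟩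
    · obtain ⟨B, h1, h2, h3⟩ := s.remove_some hδ hIZ hl hZ hZ' (by omega)
      exact ⟨B, h1, h2.trans hZX, h3⟩
  · obtain ⟨h1, h2⟩ := hI.resolve_left hl
    exact s.add_some hδ hIX hl h1 h2 hX2

theorem exists_matroid : ∃ M : Matroid α, M.E = E ∧ (∀ X, X ⊆ E → M.Indep X ∨ M.Spanning X) ∧
    (∀ X, M.Indep X → ¬ s.High X) ∧ (∀ X, M.Spanning X → ¬ s.Low X) := by
  obtain ⟨δ, hδ⟩ := exists_delta α
  let Ind : Set α → Prop := fun X => X ⊆ E ∧ (s.Low X ∨ (¬ s.High X ∧ δ X ≤ 0))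
  have hsub : ∀ ⦃I J⦄, Ind J → I ⊆ J → Ind I := by
    rintro I J ⟨hJE, hJ⟩ hIJ
    refine ⟨hIJ.trans hJE, ?_⟩
    rcases hJ with hJ | ⟨hJ, hJ0⟩
    · exact Or.inl (s.low_mono _ _ hIJ hJ)
    · by_cases hf : (J \ I).Finite
      · refine Or.inr ⟨fun h => hJ (s.high_mono _ _ hIJ h), ?_⟩
        have := delta_union hδ I hf disjoint_sdiff_right
        rw [Set.union_diff_cancel hIJ] at this
        omega
      · exact Or.inl (s.down _ _ hIJ hJ hf)
  have hins : ∀ B e, ¬ s.Low B → δ B = 0 → e ∉ B → ¬ Ind (insert e B) := by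
    rintro B e hB h0 he ⟨-, h | ⟨-, h⟩⟩
    · exact hB (s.low_mono _ _ (subset_insert _ _) h)
    · rw [hδ _ _ he] at h; omega
  have hmax : ∀ B X, ¬ s.Low B → δ B = 0 → B ⊆ X → Ind X → X ⊆ B := by
    intro B X hB h0 hBX hX e he
    by_contra heB
    exact hins B e hB h0 heB (hsub hX (insert_subset he hBX))
  let M0 : IndepMatroid α :=
    { E := E
      Indep := Ind
      indep_empty := ⟨empty_subset _, Or.inl s.low_empty⟩
      indep_subset := hsub
      indep_aug := by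
        intro I B hI hImax hB
        have hne : ¬ B ⊆ I := fun h => hImax (by
          have : I = B := (hB.eq_of_subset hI h).symm
          exact this ▸ hB)
        obtain ⟨x, hxB, hxI⟩ := Set.not_subset.mp hne
        refine ⟨x, ⟨hxB, hxI⟩, insert_subset (hB.prop.1 hxB) hI.1, ?_⟩
        by_cases hl : s.Low I
        · exact Or.inl (s.low_ins _ _ hl)
        · obtain ⟨h1, h2⟩ := hI.2.resolve_left hl
          refine Or.inr ⟨fun h => h1 (s.high_ins _ _ h), ?_⟩
          have h3 : δ I ≠ 0 := fun h0 =>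
            hImax ⟨hI, fun Y hY hIY => hmax I Y hl h0 hIY hY⟩
          rw [hδ _ _ hxI]; omega
      indep_maximal := by
        intro X hXE I hI hIX
        by_cases hX : Ind X
        · exact ⟨X, hIX, ⟨hX, subset_rfl⟩, fun Y hY _ => hY.2⟩
        · obtain ⟨B, h1, h2, h3, h4, h5⟩ := s.exists_base hδ hIX hXE hI.2 (fun h => hX ⟨hXE, h⟩)
          exact ⟨B, h1, ⟨⟨h2.trans hXE, Or.inr ⟨h4, h5.le⟩⟩, h2⟩,
            fun Y hY hBY => hmax B Y h3 h5 hBY hY.1⟩
      subset_ground := fun I hI => hI.1 }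
  refine ⟨M0.matroid, rfl, ?_, ?_, ?_⟩
  · intro X hXE
    by_cases hX : Ind X
    · exact Or.inl hX
    · right
      obtain ⟨B, -, h2, h3, h4, h5⟩ := s.exists_base hδ (empty_subset X) hXE
        (Or.inl s.low_empty) (fun h => hX ⟨hXE, h⟩)
      have hB : M0.matroid.IsBase B :=
        ⟨⟨h2.trans hXE, Or.inr ⟨h4, h5.le⟩⟩, fun Y hY hBY => hmax B Y h3 h5 hBY hY⟩
      exact hB.spanning.superset h2 hXE
  · rintro X ⟨-, h | ⟨h, -⟩⟩
    · exact s.not_both _ h
    · exact h
  · intro X hX hl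
    obtain ⟨B, hB, hBX⟩ := hX.exists_isBase_subset
    have hBl : s.Low B := s.low_mono _ _ hBX hl
    have hB' : Maximal Ind B := hB
    have hEB : E ⊆ B := by
      intro e he
      have : Ind (insert e B) := ⟨insert_subset he hB'.prop.1, Or.inl (s.low_ins _ _ hBl)⟩
      exact hB'.2 this (subset_insert _ _) (mem_insert _ _)
    exact s.not_both _ (s.low_mono _ _ hEB hBl) s.high_ground

end Sign

end Vale.Agent.P068
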