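import Mathlib
import Vale.Agent.P068.Sign

/-! Greedy lemmas: weights `A i Z + slow i Z` compared with `3 i`. -/

open Set Filter

namespace Vale.Agent.P068

variable {α : Type*}

theorem exists_max {β : Type*} (P : Set β → Prop) (h0 : P ∅)
    (hmono : ∀ X Y, X ⊆ Y → P Y → P X) (hfc : ∀ X, (∀ Y ⊆ X, Y.Finite → P Y) → P X) :
    ∃ S, P S ∧ ∀ e, P (insert e S) → e ∈ S := by
  have hF : Order.IsOfFiniteCharacter {X | P X} := fun X =>
    ⟨fun h Y hY _ => hmono _ _ hY h, hfc X⟩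
  obtain ⟨S, -, hS⟩ := hF.exists_maximal (x := ∅) h0
  exact ⟨S, hS.prop, fun e he => hS.2 he (subset_insert _ _) (mem_insert _ _)⟩

noncomputable def slow (τ : α → ℕ) (i : ℕ) (Z : Set α) : ℕ∞ := (Z ∩ {e | τ e ≤ i}).encard

theorem slow_le_of {τ : α → ℕ} {i : ℕ} {X Y : Set α} (h : ∀ e ∈ X, τ e ≤ i → e ∈ Y) :
    slow τ i X ≤ slow τ i Y :=
  encard_le_encard (fun e he => ⟨h e he.1 he.2, he.2⟩)

theorem slow_mono {τ : α → ℕ} {i : ℕ} {X Y : Set α} (h : X ⊆ Y) : slow τ i X ≤ slow τ i Y :=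
  slow_le_of (fun _ he _ => h he)

theorem slow_insert_le (τ : α → ℕ) (i : ℕ) (e : α) (Z : Set α) :
    slow τ i (insert e Z) ≤ slow τ i Z + 1 := by
  refine le_trans (encard_le_encard ?_) (encard_insert_le (Z ∩ {e | τ e ≤ i}) e)
  rintro x ⟨h | h, hx⟩
  · exact Or.inl h
  · exact Or.inr ⟨h, hx⟩

theorem slow_gap {τ : α → ℕ} {X Y : Set α} (hXY : X ⊆ Y) (hinf : (Y \ X).Infinite) (m : ℕ) :
    ∀ᶠ i in atTop, slow τ i X + m ≤ slow τ i Y := by
  obtain ⟨F, hF, hFf, hFm⟩ := hinf.exists_subset_ncard_eq m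
  obtain ⟨b, hb⟩ := (hFf.image τ).bddAbove
  filter_upwards [eventually_ge_atTop b] with i hi
  have hd : Disjoint (X ∩ {e | τ e ≤ i}) F :=
    Set.disjoint_left.mpr (fun x hx hxF => (hF hxF).2 hx.1)
  have h1 : (m : ℕ∞) = F.encard := by rw [← hFm, hFf.cast_ncard_eq]
  rw [slow, h1, ← encard_union_eq hd]
  refine encard_le_encard ?_
  rintro x (hx | hx)
  · exact ⟨hXY hx.1, hx.2⟩
  · exact ⟨(hF hx).1, (hb ⟨x, hx, rfl⟩).trans hi⟩

theorem fill {τ : α → ℕ} (hfin : ∀ i, {e | τ e ≤ i}.Finite) (b : ℕ → ℕ∞) (Z Q : Set α) (i0 : ℕ)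
    (h : ∀ i, i0 ≤ i → b i + slow τ i Z ≤ (3 * i : ℕ)) :
    ∃ R, R ⊆ Q ∧ (∀ i, i0 ≤ i → b i + slow τ i (Z ∪ R) ≤ (3 * i : ℕ)) ∧
      ∀ i1, (∀ i, i1 ≤ i → b i + slow τ i (Z ∪ R) + 1 ≤ (3 * i : ℕ)) →
        ∀ e ∈ Q, i1 ≤ τ e → e ∈ R := by
  obtain ⟨R, ⟨hRQ, hR⟩, hmax⟩ := exists_max
    (fun R => R ⊆ Q ∧ ∀ i, i0 ≤ i → b i + slow τ i (Z ∪ R) ≤ (3 * i : ℕ))
    ⟨empty_subset _, by simpa using h⟩
    (fun X Y hXY hY => ⟨hXY.trans hY.1, fun i hi =>
      le_trans (by gcongr; exact slow_mono (union_subset_union_right _ hXY)) (hY.2 i hi)⟩)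
    (fun X hX => ⟨fun e he => (hX {e} (by simpa using he) (finite_singleton e)).1 rfl,
      fun i hi => by
        refine le_trans ?_ ((hX (X ∩ {e | τ e ≤ i}) inter_subset_left
          ((hfin i).subset inter_subset_right)).2 i hi)
        gcongr
        refine slow_le_of ?_
        rintro e (he | he) hτ
        · exact Or.inl he
        · exact Or.inr ⟨he, hτ⟩⟩)
  refine ⟨R, hRQ, hR, fun i1 h1 e he hτ => hmax e ⟨insert_subset he hRQ, fun i hi => ?_⟩⟩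
  rw [union_insert]
  by_cases hie : i1 ≤ i
  · refine le_trans ?_ (h1 i hie)
    rw [add_assoc]; gcongr; exact slow_insert_le _ _ _ _
  · refine le_trans ?_ (hR i hi)
    gcongr
    refine slow_le_of ?_
    rintro x (rfl | hx) hx'
    · omega
    · exact hx

theorem ar1 {t : ℕ∞} {i n : ℕ} (h : ((3 * i + (n + 1) : ℕ) : ℕ∞) ≤ t + 1) :
    ((3 * i + n : ℕ) : ℕ∞) ≤ t := by
  cases t
  · simp
  · norm_cast at *; omega

theorem ar2 {a b c d : ℕ∞} {i m n : ℕ} (h1 : ¬ a + c + m ≤ ((3 * i : ℕ) : ℕ∞))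
    (h2 : c + ((m + n : ℕ) : ℕ∞) ≤ d) (h3 : a ≤ b) : ((3 * i + n : ℕ) : ℕ∞) ≤ b + d := by
  cases a <;> cases b <;> cases c <;> cases d <;> simp at * <;> (norm_cast at *; omega)

theorem ar3 {a b c d : ℕ∞} {i m n : ℕ} (h1 : ¬ ((3 * i + m : ℕ) : ℕ∞) ≤ b + d)
    (h2 : c + ((m + n : ℕ) : ℕ∞) ≤ d) (h3 : a ≤ b) : a + c + n ≤ ((3 * i : ℕ) : ℕ∞) := by
  cases a <;> cases b <;> cases c <;> cases d <;> simp at * <;> (norm_cast at *; omega)

theorem ar4 {a b c d : ℕ∞} {i C : ℕ} (h1 : c ≤ b + C) (h3 : b + d ≤ ((3 * i : ℕ) : ℕ∞))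
    (h4 : a ≤ c) : a + d ≤ ((3 * i + C : ℕ) : ℕ∞) := by
  calc a + d ≤ b + C + d := by gcongr; exact h4.trans h1
    _ = b + d + C := by ring
    _ ≤ ((3 * i : ℕ) : ℕ∞) + C := by gcongr
    _ = _ := by push_cast; ring

theorem ar5 {a s : ℕ∞} {k : ℕ} (h : ∀ m : ℕ, (m : ℕ∞) ≤ a → m + s ≤ k) : a + s ≤ k := by
  cases a with
  | top =>
    have := le_trans le_self_add (h (k + 1) le_top)
    norm_cast at this; omega
  | coe a => exact h a le_rfl

/-- A weight system. -/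
structure Wt (α : Type*) where
  τ : α → ℕ
  A : ℕ → Set α → ℕ∞
  card_le : ∀ i, {e | τ e ≤ i}.encard ≤ (i + 1 : ℕ)
  mono : ∀ i X Y, X ⊆ Y → A i X ≤ A i Y
  ins : ∀ i X e, A i (insert e X) ≤ A i X

namespace Wt

variable (w : Wt α)

def Low (Z : Set α) : Prop :=
  ∀ n : ℕ, ∀ᶠ i in atTop, w.A i Z + slow w.τ i Z + n ≤ (3 * i : ℕ)

def High (Z : Set α) : Prop :=
  ∀ n : ℕ, ∃ᶠ i in atTop, ((3 * i + n : ℕ) : ℕ∞) ≤ w.A i Z + slow w.τ i Z

theorem fin (i : ℕ) : {e | w.τ e ≤ i}.Finite :=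
  finite_of_encard_le_coe (w.card_le i)

theorem slow_le (i : ℕ) (Z : Set α) : slow w.τ i Z ≤ (i + 1 : ℕ) :=
  le_trans (encard_le_encard inter_subset_right) (w.card_le i)

theorem a_mono {i : ℕ} {X Y : Set α} (h : X ⊆ Y) :
    w.A i X + slow w.τ i X ≤ w.A i Y + slow w.τ i Y :=
  add_le_add (w.mono _ _ _ h) (slow_mono h)

theorem a_ins (i : ℕ) (X : Set α) (e : α) :
    w.A i (insert e X) + slow w.τ i (insert e X) ≤ w.A i X + slow w.τ i X + 1 := by
  rw [add_assoc]; exact add_le_add (w.ins _ _ _) (slow_insert_le _ _ _ _)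

theorem not_high_of {Z : Set α} {C : ℕ}
    (h : ∀ᶠ i in atTop, w.A i Z + slow w.τ i Z ≤ ((3 * i + C : ℕ) : ℕ∞)) : ¬ w.High Z := by
  intro hH
  obtain ⟨i, h1, h2⟩ := ((hH (C + 1)).and_eventually h).exists
  have := h1.trans h2
  norm_cast at this
  omega

theorem not_both (Z : Set α) (h : w.Low Z) : ¬ w.High Z := by
  refine w.not_high_of (C := 0) ?_
  filter_upwards [h 0] with i hi
  simpa using hi

theorem low_mono (X Y : Set α) (h : X ⊆ Y) (hY : w.Low Y) : w.Low X := fun n => by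
  filter_upwards [hY n] with i hi
  exact le_trans (by gcongr ?_ + _; exact w.a_mono h) hi

theorem high_mono (X Y : Set α) (h : X ⊆ Y) (hX : w.High X) : w.High Y := fun n =>
  (hX n).mono fun _ hi => hi.trans (w.a_mono h)

theorem low_ins (X : Set α) (e : α) (h : w.Low X) : w.Low (insert e X) := fun n => by
  filter_upwards [h (n + 1)] with i hi
  refine le_trans ?_ hi
  have := w.a_ins i X e
  calc _ ≤ w.A i X + slow w.τ i X + 1 + n := by gcongr
    _ = _ := by push_cast; ring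

theorem high_ins (X : Set α) (e : α) (h : w.High (insert e X)) : w.High X := fun n => by
  refine (h (n + 1)).mono fun i hi => ?_
  exact ar1 (hi.trans (w.a_ins i X e))

theorem up (X Y : Set α) (h : X ⊆ Y) (hX : ¬ w.Low X) (hinf : (Y \ X).Infinite) :
    w.High Y := fun n => by
  obtain ⟨m, hm⟩ := not_forall.mp hX
  refine ((not_eventually.mp hm).and_eventually (slow_gap (τ := w.τ) h hinf (m + n))).mono ?_
  rintro i ⟨h1, h2⟩
  exact ar2 h1 h2 (w.mono i _ _ h)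

theorem down (X Y : Set α) (h : X ⊆ Y) (hY : ¬ w.High Y) (hinf : (Y \ X).Infinite) :
    w.Low X := fun n => by
  obtain ⟨m, hm⟩ := not_forall.mp hY
  filter_upwards [not_frequently.mp hm, slow_gap (τ := w.τ) h hinf (m + n)] with i h1 h2
  exact ar3 h1 h2 (w.mono i _ _ h)

theorem low_of_fin {X F : Set α} (hF : F.Finite) (h : w.Low X) : w.Low (X ∪ F) := by
  induction F, hF using Set.Finite.induction_on with
  | empty => simpa using h
  | @insert a t _ _ ih => rw [Set.union_insert]; exact w.low_ins _ _ ih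

theorem tame {Z U : Set α} (hZU : Z ⊆ U) (hZ : w.Low Z) (hU : w.High U) (C : ℕ)
    (hC : ∀ᶠ i in atTop, w.A i U ≤ w.A i Z + C) :
    ∃ Y, Z ⊆ Y ∧ Y ⊆ U ∧ ¬ w.Low Y ∧ ¬ w.High Y := by
  obtain ⟨i0, hi0⟩ := eventually_atTop.mp (hZ 0)
  obtain ⟨R, hRU, hR, hmax⟩ := fill w.fin (fun i => w.A i Z) Z U i0 (by simpa using hi0)
  have hsub : Z ∪ R ⊆ U := union_subset hZU hRU
  refine ⟨Z ∪ R, subset_union_left, hsub, fun hl => ?_, w.not_high_of (C := C) ?_⟩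
  · obtain ⟨i1, hi1⟩ := eventually_atTop.mp (hl 1)
    have := hmax i1 (fun i hi => le_trans
      (by push_cast; gcongr; exact w.mono _ _ _ subset_union_left) (hi1 i hi))
    refine w.not_both U (w.low_mono _ _ ?_ (w.low_of_fin (w.fin i1) hl)) hU
    intro e he
    by_cases h : i1 ≤ w.τ e
    · exact Or.inl (Or.inr (this e he h))
    · exact Or.inr (show w.τ e ≤ i1 by omega)
  · filter_upwards [hC, eventually_ge_atTop i0] with i h1 h2
    exact ar4 h1 (hR i h2) (w.mono i _ _ hsub)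

/-- the set obtained from `L` by adding the whole units in `S` -/
def whole {ι : Type*} (u : α → ι) (L U : Set α) (S : Set ι) : Set α :=
  L ∪ {e | e ∈ U ∧ u e ∈ S}

theorem whole_mono {ι : Type*} (u : α → ι) (L U : Set α) {S S' : Set ι} (h : S ⊆ S') :
    whole u L U S ⊆ whole u L U S' := by
  rintro e (he | he)
  · exact Or.inl he
  · exact Or.inr ⟨he.1, h he.2⟩

theorem max_units {ι : Type*} (u : α → ι) (L U : Set α) (B : ℕ → Set ι → ℕ∞) (i0 : ℕ)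
    (h0 : ∀ i, i0 ≤ i → B i ∅ + slow w.τ i L ≤ (3 * i : ℕ))
    (hmono : ∀ i S S', S ⊆ S' → B i S ≤ B i S')
    (hfc : ∀ i S (m : ℕ), (m : ℕ∞) ≤ B i S → ∃ S', S' ⊆ S ∧ S'.Finite ∧ (m : ℕ∞) ≤ B i S') :
    ∃ S, (∀ i, i0 ≤ i → B i S + slow w.τ i (whole u L U S) ≤ (3 * i : ℕ)) ∧
      ∀ x, x ∉ S → ∃ i, i0 ≤ i ∧
        ¬ B i (insert x S) + slow w.τ i (whole u L U (insert x S)) ≤ (3 * i : ℕ) := by
  obtain ⟨S, hS, hmax⟩ := exists_max
    (fun S => ∀ i, i0 ≤ i → B i S + slow w.τ i (whole u L U S) ≤ (3 * i : ℕ))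
    (by simpa [whole] using h0)
    (fun X Y hXY hY i hi =>
      le_trans (add_le_add (hmono _ _ _ hXY) (slow_mono (whole_mono u L U hXY))) (hY i hi))
    (fun X hX i hi => ar5 fun m hm => by
      obtain ⟨S', h1, h2, h3⟩ := hfc i X m hm
      refine le_trans ?_ (hX (S' ∪ (X ∩ u '' {e | w.τ e ≤ i}))
        (union_subset h1 inter_subset_left)
        (h2.union (((w.fin i).image u).subset inter_subset_right)) i hi)
      refine add_le_add (h3.trans (hmono _ _ _ subset_union_left)) (slow_le_of ?_)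
      rintro e (he | he) hτ
      · exact Or.inl he
      · exact Or.inr ⟨he.1, Or.inr ⟨he.2, e, hτ, rfl⟩⟩)
  refine ⟨S, hS, fun x hx => ?_⟩
  by_contra hc
  push Not at hc
  exact hx (hmax x hc)

theorem units {ι : Type*} {L U : Set α} (hLU : L ⊆ U) (hL : w.Low L) (hU : w.High U)
    (u : α → ι) (γ : ι → ℕ) (hγ : ∀ e, γ (u e) ≤ w.τ e) (B : ℕ → Set ι → ℕ∞)
    (hB : ∀ S Z, L ⊆ Z → Z ⊆ U → (∀ e ∈ U, u e ∈ S → e ∈ Z) →
      (∀ x, x ∉ S → {e | e ∈ Z ∧ e ∉ L ∧ u e = x}.Finite) → ∀ i, w.A i Z = B i S)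
    (hmono : ∀ i S S', S ⊆ S' → B i S ≤ B i S')
    (hins : ∀ i S x, B i (insert x S) ≤ B i S + 1)
    (hfc : ∀ i S (m : ℕ), (m : ℕ∞) ≤ B i S → ∃ S', S' ⊆ S ∧ S'.Finite ∧ (m : ℕ∞) ≤ B i S')
    (hloc : ∀ᶠ i in atTop, ∃ r, ∀ S x, r < γ x → B i (insert x S) ≤ B i S)
    (hbdd : ∀ r, ∃ C : ℕ, ∀ S, (∀ x, r < γ x → x ∈ S) → ∀ᶠ i in atTop, B i univ ≤ B i S + C) :
    ∃ Y, L ⊆ Y ∧ Y ⊆ U ∧ ¬ w.Low Y ∧ ¬ w.High Y := by
  classical
  obtain ⟨i0, hi0⟩ := eventually_atTop.mp ((hL 0).and hloc)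
  have hL0 : ∀ i, w.A i L = B i ∅ :=
    hB ∅ L subset_rfl hLU (fun _ _ h => h.elim) (fun x _ => by simp)
  have hUu : ∀ i, w.A i U = B i univ :=
    hB univ U hLU subset_rfl (fun _ h _ => h) (fun x hx => (hx trivial).elim)
  obtain ⟨S, hS, hmax⟩ := w.max_units u L U B i0
    (fun i hi => by simpa [hL0] using (hi0 i hi).1) hmono hfc
  choose! j hj0 hj using hmax
  choose! r hr using fun i hi => (hi0 i hi).2
  obtain ⟨R, hRQ, hR, hRmax⟩ := fill w.fin (fun i => B i S) (whole u L U S)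
    {e | e ∈ U ∧ u e ∉ S ∧ w.τ e ≤ j (u e)} i0 hS
  have hLZ : L ⊆ whole u L U S ∪ R := fun e he => Or.inl (Or.inl he)
  have hZU : whole u L U S ∪ R ⊆ U := by
    rintro e ((he | he) | he)
    · exact hLU he
    · exact he.1
    · exact (hRQ he).1
  have hZ : ∀ i, w.A i (whole u L U S ∪ R) = B i S := by
    refine hB S _ hLZ hZU (fun e he h => Or.inl (Or.inr ⟨he, h⟩)) (fun x hx => ?_)
    refine (w.fin (j x)).subset ?_
    rintro e ⟨(he | he) | he, h1, rfl⟩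
    · exact absurd he h1
    · exact absurd he.2 hx
    · exact (hRQ he).2.2
  by_cases hl : w.Low (whole u L U S ∪ R)
  · obtain ⟨i1, hi1⟩ := eventually_atTop.mp (hl 1)
    simp only [hZ, Nat.cast_one] at hi1
    have hQ := hRmax i1 hi1
    obtain ⟨C, hC⟩ := hbdd (i1 + (Finset.range i1).sup r)
    have hall : ∀ x, i1 + (Finset.range i1).sup r < γ x → x ∈ S := by
      intro x hx
      by_contra hxS
      apply hj x hxS
      have h1 : slow w.τ (j x) (whole u L U (insert x S)) ≤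
          slow w.τ (j x) (whole u L U S ∪ R) := by
        refine slow_le_of ?_
        rintro e (he | ⟨he, rfl | h⟩) hτ
        · exact hLZ he
        · exact Or.inr (hQ e ⟨he, hxS, hτ⟩ (by have := hγ e; omega))
        · exact Or.inl (Or.inr ⟨he, h⟩)
      by_cases h : i1 ≤ j x
      · refine le_trans (add_le_add (hins _ _ _) h1) (le_trans (le_of_eq ?_) (hi1 _ h))
        ring
      · have h2 : r (j x) ≤ (Finset.range i1).sup r :=
          Finset.le_sup (f := r) (Finset.mem_range.mpr (by omega))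
        exact le_trans (add_le_add (hr _ (hj0 x hxS) S x (by omega)) h1) (hR _ (hj0 x hxS))
    obtain ⟨Y, h1, h2⟩ := w.tame hZU hl hU C (by simpa only [hZ, hUu] using hC S hall)
    exact ⟨Y, hLZ.trans h1, h2⟩
  · refine ⟨_, hLZ, hZU, hl, w.not_high_of (C := 0) ?_⟩
    filter_upwards [eventually_ge_atTop i0] with i hi
    simpa [hZ] using hR i hi

end Wt

end Vale.Agent.P068
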