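import Mathlib
import Vale.Agent.P068.Greedy

/-! A sign pattern from three-state columns. -/

open Set Filter

namespace Vale.Agent.P068

variable {α : Type*}

def rowK (p : Set (ℕ × ℕ)) : Set ℕ := {i | {k | (i, k) ∈ p}.Infinite}

def Pos (p : Set (ℕ × ℕ)) : Prop := (rowK p).Infinite

noncomputable def cnt (p : Set (ℕ × ℕ)) (i : ℕ) : ℕ∞ := {k | (i, k) ∈ p}.encard

noncomputable def G (K : Set ℕ) (t : ℕ∞) : ℕ∞ := {r | r ∈ K ∧ (r : ℕ∞) < t}.encard

theorem rowK_mono {p q : Set (ℕ × ℕ)} (h : p ⊆ q) : rowK p ⊆ rowK q :=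
  fun _ hi => Set.Infinite.mono (fun _ hk => h hk) hi

theorem Pos.mono {p q : Set (ℕ × ℕ)} (h : p ⊆ q) (hp : Pos p) : Pos q :=
  Set.Infinite.mono (rowK_mono h) hp

theorem pos_univ : Pos univ := by
  have : rowK univ = univ := by
    ext i; simp [rowK, Set.infinite_univ]
  rw [Pos, this]; exact Set.infinite_univ

theorem Pos.nonempty {p : Set (ℕ × ℕ)} (hp : Pos p) : p.Nonempty := by
  obtain ⟨i, hi⟩ := Set.Infinite.nonempty hp
  obtain ⟨k, hk⟩ := Set.Infinite.nonempty hi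
  exact ⟨_, hk⟩

theorem cnt_mono {p q : Set (ℕ × ℕ)} (h : p ⊆ q) (i : ℕ) : cnt p i ≤ cnt q i :=
  encard_le_encard (fun _ hk => h hk)

theorem G_mono {K K' : Set ℕ} {t t' : ℕ∞} (h : K ⊆ K') (ht : t ≤ t') : G K t ≤ G K' t' :=
  encard_le_encard (fun _ hr => ⟨h hr.1, hr.2.trans_le ht⟩)

theorem G_succ (K : Set ℕ) (t : ℕ∞) : G K (t + 1) ≤ G K t + 1 := by
  cases t with
  | top => simp
  | coe t =>
    refine le_trans (encard_le_encard ?_) (encard_insert_le {r | r ∈ K ∧ (r : ℕ∞) < t} t)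
    rintro r ⟨h1, h2⟩
    by_cases h : r = t
    · exact Or.inl h
    · refine Or.inr ⟨h1, ?_⟩
      norm_cast at *; omega

theorem G_union (K F : Set ℕ) (t : ℕ∞) : G (K ∪ F) t ≤ G K t + F.encard := by
  refine le_trans (encard_le_encard ?_) (encard_union_le {r | r ∈ K ∧ (r : ℕ∞) < t} F)
  rintro r ⟨h1 | h1, h2⟩
  · exact Or.inl ⟨h1, h2⟩
  · exact Or.inr h1

theorem G_le (K : Set ℕ) (t : ℕ∞) : G K t ≤ K.encard := encard_le_encard (fun _ h => h.1)

theorem G_zero (K : Set ℕ) : G K 0 = 0 := by simp [G]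

theorem G_top (K : Set ℕ) : G K ⊤ = K.encard := by simp [G]

theorem G_fc {K : Set ℕ} {t : ℕ∞} {m : ℕ} (h : (m : ℕ∞) ≤ G K t) :
    ∃ F : Set ℕ, ∃ n : ℕ, F ⊆ K ∧ F.Finite ∧ (n : ℕ∞) ≤ t ∧ (m : ℕ∞) ≤ G F n := by
  obtain ⟨F, hF, hFm⟩ := exists_subset_encard_eq h
  have hFf : F.Finite := finite_of_encard_eq_coe hFm
  rcases F.eq_empty_or_nonempty with rfl | hne
  · exact ⟨∅, 0, empty_subset _, finite_empty, by simp, by simp [← hFm]⟩
  · obtain ⟨b, hb, hmax⟩ := hFf.exists_maximal hne |>.imp fun b hb => hb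
    refine ⟨F, b + 1, fun r hr => (hF hr).1, hFf, ?_, ?_⟩
    · have := (hF hb).2
      push_cast; exact Order.add_one_le_of_lt this
    · rw [← hFm]
      refine encard_le_encard (fun r hr => ⟨hr, ?_⟩)
      have : r ≤ b := by
        rcases le_total r b with h | h
        · exact h
        · exact hmax hr h
      norm_cast; omega

/-- Columns with three states. -/
structure Cols (α : Type*) (E : Set α) where
  col : α → ℕ × ℕ
  enc : α → ℕ
  enc_inj : Function.Injective enc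
  Pl : ℕ × ℕ → Set α → Prop
  Bz : ℕ × ℕ → Set α → Prop
  pl_bz : ∀ c Z, Pl c Z → Bz c Z
  pl_mono : ∀ c X Y, {e | e ∈ X ∧ e ∉ Y ∧ col e = c}.Finite → Pl c X → Pl c Y
  bz_mono : ∀ c X Y, {e | e ∈ X ∧ e ∉ Y ∧ col e = c}.Finite → Bz c X → Bz c Y
  pass : ∀ c L U, L ⊆ U → ¬ Bz c L → Bz c U → ∃ Z, L ⊆ Z ∧ Z ⊆ U ∧ Bz c Z ∧ ¬ Pl c Z
  empty : ∀ c, ¬ Pl c ∅
  ground : ∀ c, Pl c E

namespace Cols

variable {E : Set α} (s : Cols α E)

theorem pl_sub {c : ℕ × ℕ} {X Y : Set α} (h : ∀ e ∈ X, s.col e = c → e ∈ Y) (hX : s.Pl c X) :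
    s.Pl c Y :=
  s.pl_mono c X Y (finite_empty.subset fun e he => he.2.1 (h e he.1 he.2.2)) hX

theorem bz_sub {c : ℕ × ℕ} {X Y : Set α} (h : ∀ e ∈ X, s.col e = c → e ∈ Y) (hX : s.Bz c X) :
    s.Bz c Y :=
  s.bz_mono c X Y (finite_empty.subset fun e he => he.2.1 (h e he.1 he.2.2)) hX

noncomputable def wt : Wt α where
  τ := fun e => s.enc e + (s.col e).1
  A := fun i Z => G (rowK {c | s.Bz c Z}) (cnt {c | s.Pl c Z} i)
  card_le := fun i => by
    have h1 : MapsTo s.enc {e | s.enc e + (s.col e).1 ≤ i} (Finset.range (i + 1) : Set ℕ) := by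
      intro e he
      simp only [mem_setOf_eq, Finset.coe_range, mem_Iio] at *
      omega
    refine (encard_le_encard_of_injOn h1 s.enc_inj.injOn).trans ?_
    rw [encard_coe_eq_coe_finsetCard, Finset.card_range]
  mono := fun i X Y h => G_mono (rowK_mono fun c hc => s.bz_sub (fun e he _ => h he) hc)
    (cnt_mono (fun c hc => s.pl_sub (fun e he _ => h he) hc) i)
  ins := fun i X e => by
    have hf : ∀ c, {x | x ∈ insert e X ∧ x ∉ X ∧ s.col x = c}.Finite := fun c =>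
      (finite_singleton e).subset (fun x hx => hx.1.resolve_right hx.2.1)
    exact G_mono (rowK_mono fun c hc => s.bz_mono c _ _ (hf c) hc)
      (cnt_mono (fun c hc => s.pl_mono c _ _ (hf c) hc) i)

theorem low_of_bdd {Z : Set α} (C : ℕ) (h : ∀ i, s.wt.A i Z ≤ C) : s.wt.Low Z := fun n => by
  filter_upwards [eventually_ge_atTop (C + 1 + n)] with i hi
  refine le_trans (add_le_add (add_le_add (h i) (s.wt.slow_le i Z)) le_rfl) ?_
  norm_cast; omega

theorem low_of_not_pos {Z : Set α} (h : ¬ Pos {c | s.Bz c Z}) : s.wt.Low Z := by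
  have hf : (rowK {c | s.Bz c Z}).Finite := not_infinite.mp h
  refine s.low_of_bdd (rowK {c | s.Bz c Z}).ncard fun i => ?_
  rw [hf.cast_ncard_eq]; exact G_le _ _

theorem low_of_no_pl {Z : Set α} (h : ∀ c, ¬ s.Pl c Z) : s.wt.Low Z := by
  refine s.low_of_bdd 0 fun i => ?_
  have : cnt {c | s.Pl c Z} i = 0 := by simp [cnt, h]
  simp [wt, this, G_zero]

theorem high_of_pos {Z : Set α} (h : Pos {c | s.Pl c Z}) : s.wt.High Z := fun n => by
  have hK : (rowK {c | s.Bz c Z}).Infinite := Pos.mono (fun c hc => s.pl_bz c Z hc) h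
  refine (Nat.frequently_atTop_iff_infinite.mpr h).mono fun i hi => ?_
  have : cnt {c | s.Pl c Z} i = ⊤ := Set.Infinite.encard_eq hi
  simp [wt, this, G_top, hK.encard_eq]

theorem mid_cols {L U : Set α} (hLU : L ⊆ U) (hL : s.wt.Low L) (hU : s.wt.High U)
    (hBz : ∀ c, s.Bz c U → s.Bz c L) :
    ∃ Y, L ⊆ Y ∧ Y ⊆ U ∧ ¬ s.wt.Low Y ∧ ¬ s.wt.High Y := by
  refine s.wt.units hLU hL hU s.col Prod.fst (fun e => Nat.le_add_left _ _)
    (fun i S => G (rowK {c | s.Bz c U}) (cnt {c | s.Pl c L ∨ (c ∈ S ∧ s.Pl c U)} i))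
    ?_ ?_ ?_ ?_ ?_ ?_
  · intro S Z hLZ hZU h1 h2 i
    have e1 : {c | s.Bz c Z} = {c | s.Bz c U} := by
      ext c
      exact ⟨s.bz_sub fun e he _ => hZU he, fun h => s.bz_sub (fun e he _ => hLZ he) (hBz c h)⟩
    have e2 : {c | s.Pl c Z} = {c | s.Pl c L ∨ (c ∈ S ∧ s.Pl c U)} := by
      ext c
      constructor
      · intro h
        by_cases hc : c ∈ S
        · exact Or.inr ⟨hc, s.pl_sub (fun e he _ => hZU he) h⟩
        · exact Or.inl (s.pl_mono c _ _ (h2 c hc) h)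
      · rintro (h | ⟨hc, h⟩)
        · exact s.pl_sub (fun e he _ => hLZ he) h
        · exact s.pl_sub (fun e he hec => h1 e he (hec ▸ hc)) h
    simp only [wt, e1, e2]
  · intro i S S' h
    exact G_mono subset_rfl (cnt_mono (fun c hc => hc.imp_right fun h' => ⟨h h'.1, h'.2⟩) i)
  · intro i S x
    refine le_trans (G_mono subset_rfl ?_) (G_succ _ _)
    refine le_trans (encard_le_encard ?_) (encard_insert_le _ x.2)
    rintro k (h | ⟨rfl | h, h'⟩)
    · exact Or.inr (Or.inl h)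
    · exact Or.inl rfl
    · exact Or.inr (Or.inr ⟨h, h'⟩)
  · intro i S m hm
    obtain ⟨F, n, h1, -, h3, h4⟩ := G_fc hm
    obtain ⟨T, hT, hTn⟩ := exists_subset_encard_eq h3
    have hTf : T.Finite := finite_of_encard_eq_coe hTn
    refine ⟨S ∩ (fun k => (i, k)) '' T, inter_subset_left,
      (hTf.image _).subset inter_subset_right, h4.trans (G_mono h1 ?_)⟩
    rw [← hTn]
    refine encard_le_encard fun k hk => ?_
    exact (hT hk).imp_right fun h => ⟨⟨h.1, k, hk, rfl⟩, h.2⟩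
  · refine Eventually.of_forall fun i => ⟨i, fun S x hx => G_mono subset_rfl ?_⟩
    refine encard_le_encard ?_
    rintro k (h | ⟨rfl | h, h'⟩)
    · exact Or.inl h
    · simp at hx
    · exact Or.inr ⟨h, h'⟩
  · refine fun r => ⟨0, fun S hS => ?_⟩
    filter_upwards [eventually_gt_atTop r] with i hi
    simp only [Nat.cast_zero, add_zero]
    refine G_mono subset_rfl (encard_le_encard fun k hk => ?_)
    exact hk.imp_right fun h => ⟨hS _ hi, h.2⟩

theorem mid_rows {L U : Set α} (hLU : L ⊆ U) (hL : s.wt.Low L) (hU : s.wt.High U)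
    (hPl : ∀ c, s.Pl c U → s.Pl c L) :
    ∃ Y, L ⊆ Y ∧ Y ⊆ U ∧ ¬ s.wt.Low Y ∧ ¬ s.wt.High Y := by
  refine s.wt.units hLU hL hU (fun e => (s.col e).1) id (fun e => Nat.le_add_left _ _)
    (fun i S => G (rowK {c | s.Bz c L} ∪ (S ∩ rowK {c | s.Bz c U})) (cnt {c | s.Pl c L} i))
    ?_ ?_ ?_ ?_ ?_ ?_
  · intro S Z hLZ hZU h1 h2 i
    have e1 : {c | s.Pl c Z} = {c | s.Pl c L} := by
      ext c
      exact ⟨fun h => hPl c (s.pl_sub (fun e he _ => hZU he) h), s.pl_sub fun e he _ => hLZ he⟩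
    have e2 : rowK {c | s.Bz c Z} = rowK {c | s.Bz c L} ∪ (S ∩ rowK {c | s.Bz c U}) := by
      ext r
      constructor
      · intro h
        by_cases hr : r ∈ S
        · exact Or.inr ⟨hr, rowK_mono (fun c hc => s.bz_sub (fun e he _ => hZU he) hc) h⟩
        · refine Or.inl (Set.Infinite.mono (fun k hk => ?_) h)
          refine s.bz_mono _ _ _ ((h2 r hr).subset ?_) hk
          rintro e ⟨a1, a2, a3⟩
          exact ⟨a1, a2, by simp [a3]⟩
      · rintro (h | ⟨hr, h⟩)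
        · exact rowK_mono (fun c hc => s.bz_sub (fun e he _ => hLZ he) hc) h
        · refine Set.Infinite.mono (fun k hk => ?_) h
          exact s.bz_sub (fun e he hec => h1 e he (by simpa [hec] using hr)) hk
    simp only [wt, e1, e2]
  · intro i S S' h
    exact G_mono (union_subset_union_right _ (inter_subset_inter_left _ h)) le_rfl
  · intro i S x
    refine le_trans (G_mono ?_ le_rfl) ((G_union _ {x} _).trans_eq (by rw [encard_singleton]))
    rintro r (h | ⟨rfl | h, h'⟩)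
    · exact Or.inl (Or.inl h)
    · exact Or.inr rfl
    · exact Or.inl (Or.inr ⟨h, h'⟩)
  · intro i S m hm
    obtain ⟨F, n, h1, h2, h3, h4⟩ := G_fc hm
    refine ⟨S ∩ F, inter_subset_left, h2.subset inter_subset_right, h4.trans (G_mono ?_ h3)⟩
    exact fun r hr => (h1 hr).imp_right fun h => ⟨⟨h.1, hr⟩, h.2⟩
  · have hnp : (rowK {c | s.Pl c L}).Finite :=
      not_infinite.mp fun h => s.wt.not_both L hL (s.high_of_pos h)
    obtain ⟨b, hb⟩ := hnp.bddAbove
    filter_upwards [eventually_gt_atTop b] with i hi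
    have hf : {k | (i, k) ∈ {c | s.Pl c L}}.Finite :=
      not_infinite.mp fun h => absurd (hb h) (by omega)
    refine ⟨{k | (i, k) ∈ {c | s.Pl c L}}.ncard, fun S x hx => encard_le_encard ?_⟩
    rintro r ⟨h | ⟨rfl | h, h'⟩, h''⟩
    · exact ⟨Or.inl h, h''⟩
    · rw [cnt, ← hf.cast_ncard_eq] at h''
      norm_cast at h''
      exact absurd (h''.trans hx) (lt_irrefl _)
    · exact ⟨Or.inr ⟨h, h'⟩, h''⟩
  · refine fun r => ⟨r + 1, fun S hS => Eventually.of_forall fun i => ?_⟩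
    refine le_trans (G_mono ?_ le_rfl)
      ((G_union _ (Finset.range (r + 1) : Set ℕ) _).trans_eq
        (by rw [encard_coe_eq_coe_finsetCard, Finset.card_range]))
    rintro x (h | ⟨-, h⟩)
    · exact Or.inl (Or.inl h)
    · by_cases hx : r < x
      · exact Or.inl (Or.inr ⟨hS x hx, h⟩)
      · exact Or.inr (by simp; omega)

theorem mid {L U : Set α} (hLU : L ⊆ U) (hL : s.wt.Low L) (hU : s.wt.High U) :
    ∃ Y, L ⊆ Y ∧ Y ⊆ U ∧ ¬ s.wt.Low Y ∧ ¬ s.wt.High Y := by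
  have : ∀ c, ∃ Z, L ⊆ Z ∧ Z ⊆ U ∧ (s.Bz c U → s.Bz c Z) ∧ (s.Pl c Z → s.Pl c L) := by
    intro c
    by_cases h1 : s.Bz c L
    · exact ⟨L, subset_rfl, hLU, fun _ => h1, id⟩
    by_cases h2 : s.Bz c U
    · obtain ⟨Z, a1, a2, a3, a4⟩ := s.pass c L U hLU h1 h2
      exact ⟨Z, a1, a2, fun _ => a3, fun h => absurd h a4⟩
    · exact ⟨L, subset_rfl, hLU, fun h => absurd h h2, id⟩
  choose f h1 h2 h3 h4 using this
  have hLM : L ⊆ {e | e ∈ f (s.col e)} := fun e he => h1 _ he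
  have hMU : {e | e ∈ f (s.col e)} ⊆ U := fun e he => h2 _ he
  by_cases hl : s.wt.Low {e | e ∈ f (s.col e)}
  · obtain ⟨Y, a1, a2⟩ := s.mid_cols hMU hl hU
      (fun c hc => s.bz_sub (fun e he hec => by simpa [hec] using he) (h3 c hc))
    exact ⟨Y, hLM.trans a1, a2⟩
  by_cases hh : s.wt.High {e | e ∈ f (s.col e)}
  · obtain ⟨Y, a1, a2, a3⟩ := s.mid_rows hLM hL hh
      (fun c hc => h4 c (s.pl_sub (fun e he hec => by simpa [hec] using he) hc))
    exact ⟨Y, a1, a2.trans hMU, a3⟩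
  exact ⟨_, hLM, hMU, hl, hh⟩

noncomputable def sign : Sign E where
  Low := s.wt.Low
  High := s.wt.High
  not_both := s.wt.not_both
  low_mono := s.wt.low_mono
  high_mono := s.wt.high_mono
  low_ins := s.wt.low_ins
  high_ins := s.wt.high_ins
  up := s.wt.up
  down := s.wt.down
  mid := fun _ _ h _ h1 h2 => s.mid h h1 h2
  low_empty := s.low_of_no_pl s.empty
  high_ground := s.high_of_pos (pos_univ.mono fun c _ => s.ground c)

theorem exists_matroid : ∃ M : Matroid α, M.E = E ∧ (∀ X, X ⊆ E → M.Indep X ∨ M.Spanning X) ∧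
    (∀ X, M.Indep X → ¬ Pos {c | s.Pl c X}) ∧
    (∀ X, M.Spanning X → Pos {c | s.Bz c X} ∧ ∃ c, s.Pl c X) := by
  obtain ⟨M, h1, h2, h3, h4⟩ := s.sign.exists_matroid
  refine ⟨M, h1, h2, fun X hX h => h3 X hX (s.high_of_pos h), fun X hX => ⟨?_, ?_⟩⟩
  · by_contra h; exact h4 X hX (s.low_of_not_pos h)
  · by_contra h; push Not at h; exact h4 X hX (s.low_of_no_pl h)

end Cols

end Vale.Agent.P068
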