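import Mathlib

/-! Well-founded ranks on a non-principal ultrafilter on `ℕ`. -/

open Set Filter

namespace Vale.Agent.P068

/-- the ultrafilter -/
noncomputable abbrev UU : Ultrafilter ℕ := hyperfilter ℕ

theorem UU_mono {A B : Set ℕ} (h : (A \ B).Finite) (hA : A ∈ UU) : B ∈ UU := by
  have h1 : (A \ B)ᶜ ∈ UU := h.compl_mem_hyperfilter
  refine mem_of_superset (inter_mem hA h1) ?_
  rintro x ⟨hx, hx'⟩
  by_contra hB
  exact hx' ⟨hx, hB⟩

theorem exists_inf_not_mem {S : Set ℕ} (hS : S.Infinite) :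
    ∃ D, D ⊆ S ∧ D.Infinite ∧ D ∉ UU := by
  let f : ℕ → ℕ := fun n => (hS.natEmbedding S n : ℕ)
  have hf : Function.Injective f := Subtype.val_injective.comp (hS.natEmbedding S).injective
  have hfS : ∀ n, f n ∈ S := fun n => (hS.natEmbedding S n).2
  have h0 : (range fun n => f (2 * n)).Infinite :=
    infinite_range_of_injective (fun a b h => by have := hf h; omega)
  have h1 : (range fun n => f (2 * n + 1)).Infinite :=
    infinite_range_of_injective (fun a b h => by have := hf h; omega)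
  by_cases h : (range fun n => f (2 * n)) ∈ UU
  · refine ⟨_, ?_, h1, fun h' => ?_⟩
    · rintro _ ⟨n, rfl⟩; exact hfS _
    · obtain ⟨x, ⟨a, ha⟩, ⟨b, hb⟩⟩ := Ultrafilter.nonempty_of_mem (inter_mem h h')
      have := hf (ha.trans hb.symm); omega
  · refine ⟨_, ?_, h0, h⟩
    rintro _ ⟨n, rfl⟩; exact hfS _

structure USet where
  val : Set ℕ
  mem : val ∈ UU

def Small (F : Set USet) : Prop :=
  ∀ T ∈ UU, ∃ A ∈ UU, ∀ B ∈ F, ((B.1 ∩ T) \ A).Infinite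

theorem Small.anti {F F' : Set USet} (h : F ⊆ F') (hF : Small F') : Small F :=
  fun T hT => (hF T hT).imp fun _ hA => ⟨hA.1, fun B hB => hA.2 B (h hB)⟩

theorem Small.ins {F : Set USet} (hF : Small F) (b) : Small (insert b F) := by
  intro T hT
  obtain ⟨A, hA, hA'⟩ := hF T hT
  have hinf : (b.1 ∩ T).Infinite := fun h => h.notMem_hyperfilter (inter_mem b.2 hT)
  obtain ⟨D, hD, hDi, hDU⟩ := exists_inf_not_mem hinf
  refine ⟨A \ D, inter_mem hA (Ultrafilter.compl_mem_iff_notMem.mpr hDU), ?_⟩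
  rintro B (rfl | hB)
  · exact hDi.mono fun x hx => ⟨hD hx, fun h => h.2 hx⟩
  · exact (hA' B hB).mono fun x hx => ⟨hx.1, fun h => hx.2 h.1⟩

theorem not_small [LinearOrder USet] [WellFoundedLT USet] :
    ¬ Small {b | Small (Iic b)} := by
  intro h
  by_cases hall : ∀ b, Small (Iic b)
  · obtain ⟨A, hA, hA'⟩ := h univ univ_mem
    exact hA' ⟨A, hA⟩ (hall _) (by simp)
  · have hne : {b | ¬ Small (Iic b)}.Nonempty := not_forall.mp hall
    obtain ⟨b, hb, hmin⟩ := wellFounded_lt.has_min _ hne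
    refine hb ((h.ins b).anti fun x hx => ?_)
    rcases (show x ≤ b from hx).eq_or_lt with rfl | hlt
    · exact Or.inl rfl
    · refine Or.inr ?_
      by_contra hx'
      exact hmin x hx' hlt

structure PreRank where
  W : Type
  lt : W → W → Prop
  wf : WellFounded lt
  big : W → Set ℕ → Prop
  big_mem : ∀ b A, big b A → A ∈ UU
  big_mono : ∀ b A A', (A \ A').Finite → big b A → big b A'
  lt_of : ∀ b b' A, big b A → ¬ big b' A → lt b' b
  big_of_lt : ∀ b b' A, big b A → lt b b' → big b' A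
  ex_big : ∀ A ∈ UU, ∃ b, big b A
  unb : ∀ b x y, x ⊆ y → x ∉ UU → y ∈ UU → ∃ X, x ⊆ X ∧ X ⊆ y ∧ X ∈ UU ∧ ¬ big b X

theorem exists_preRank : Nonempty PreRank := by
  obtain ⟨lo, hwf⟩ := exists_wellOrder USet
  have hns := not_small
  simp only [Small, not_forall, not_exists, not_and, not_infinite] at hns
  obtain ⟨T, hT, hTA⟩ := hns
  refine ⟨{ W := {b : USet // Small (Iic b)}
            lt := fun a b => a.1 < b.1
            wf := InvImage.wf Subtype.val wellFounded_lt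
            big := fun b A => ∃ c, c ≤ b.1 ∧ ((c.1 ∩ T) \ A).Finite
            big_mem := ?_, big_mono := ?_, lt_of := ?_, big_of_lt := ?_, ex_big := ?_
            unb := ?_ }⟩
  · rintro b A ⟨c, -, hc⟩
    exact UU_mono hc (inter_mem c.2 hT)
  · rintro b A A' h ⟨c, hc, hc'⟩
    refine ⟨c, hc, (hc'.union h).subset fun x hx => ?_⟩
    by_cases hA : x ∈ A
    · exact Or.inr ⟨hA, hx.2⟩
    · exact Or.inl ⟨hx.1, hA⟩
  · rintro b b' A ⟨c, hc, hc'⟩ h
    exact lt_of_not_ge fun h' => h ⟨c, hc.trans h', hc'⟩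
  · rintro b b' A ⟨c, hc, hc'⟩ h
    exact ⟨c, hc.trans h.le, hc'⟩
  · intro A hA
    obtain ⟨b, hb, hb'⟩ := hTA A hA
    exact ⟨⟨b, hb⟩, b, le_rfl, hb'⟩
  · intro b x y hxy hx hy
    have hT' : T ∩ (y \ x) ∈ UU :=
      inter_mem hT (inter_mem hy (Ultrafilter.compl_mem_iff_notMem.mpr hx))
    obtain ⟨A, hA, hA'⟩ := b.2 _ hT'
    refine ⟨x ∪ (T ∩ (y \ x) ∩ A), subset_union_left,
      union_subset hxy fun z hz => hz.1.2.1,
      mem_of_superset (inter_mem hT' hA) subset_union_right, ?_⟩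
    rintro ⟨c, hc, hc'⟩
    refine hA' c hc (hc'.subset fun z hz => ⟨⟨hz.1.1, hz.1.2.1⟩, ?_⟩)
    rintro (h | h)
    · exact hz.1.2.2.2 h
    · exact hz.2 h.2

namespace PreRank

variable (ρ : PreRank)

theorem big_sub {b : ρ.W} {A A' : Set ℕ} (h : A ⊆ A') (hA : ρ.big b A) : ρ.big b A' :=
  ρ.big_mono b A A' (by rw [sdiff_eq_empty.mpr h]; exact finite_empty) hA

theorem unb' (b : ρ.W) (x y : Set ℕ) (hxy : x ⊆ y) (hx : x ∉ UU) (hy : y ∈ UU) :
    ∃ X, x ⊆ X ∧ X ⊆ y ∧ X ∉ UU ∧ ¬ ρ.big b Xᶜ := by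
  obtain ⟨X, h1, h2, h3, h4⟩ := ρ.unb b yᶜ xᶜ (compl_subset_compl.mpr hxy)
    (Ultrafilter.compl_notMem_iff.mpr hy) (Ultrafilter.compl_mem_iff_notMem.mpr hx)
  refine ⟨Xᶜ, subset_compl_comm.mp h2, compl_subset_comm.mp h1,
    Ultrafilter.compl_notMem_iff.mpr h3, by simpa using h4⟩

theorem not_cofinal (f : ℕ → ρ.W) : ∃ A ∈ UU, ∀ n, ¬ ρ.big (f n) A := by
  let P := {p : Set ℕ × Set ℕ // p.1 ⊆ p.2 ∧ p.1 ∉ UU ∧ p.2 ∈ UU}
  have step : ∀ (n : ℕ) (p : P), ∃ q : P, p.1.1 ⊆ q.1.1 ∧ q.1.2 ⊆ p.1.2 ∧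
      ¬ ρ.big (f n) q.1.2 ∧ ¬ ρ.big (f n) q.1.1ᶜ := by
    rintro n ⟨⟨x, y⟩, h1, h2, h3⟩
    obtain ⟨y', a1, a2, a3, a4⟩ := ρ.unb (f n) x y h1 h2 h3
    obtain ⟨x', b1, b2, b3, b4⟩ := ρ.unb' (f n) x y' a1 h2 a3
    exact ⟨⟨(x', y'), b2, b3, a3⟩, b1, a2, a4, b4⟩
  choose g hg1 hg2 hg3 hg4 using step
  let p : ℕ → P := fun n => Nat.rec ⟨(∅, univ), empty_subset _, by simp, univ_mem⟩ g n
  have hp : ∀ n, p (n + 1) = g n (p n) := fun n => rfl
  have m1 : Monotone fun n => (p n).1.1 := monotone_nat_of_le_succ fun n => hg1 n (p n)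
  have m2 : Antitone fun n => (p n).1.2 := antitone_nat_of_succ_le fun n => hg2 n (p n)
  have hz : ∀ n, (⋃ k, (p k).1.1) ⊆ (p n).1.2 := fun n => iUnion_subset fun k =>
    (m1 (le_max_left k n)).trans ((p (max k n)).2.1.trans (m2 (le_max_right k n)))
  by_cases h : (⋃ k, (p k).1.1) ∈ UU
  · exact ⟨_, h, fun n hn => hg3 n (p n) (ρ.big_sub (hz (n + 1)) hn)⟩
  · refine ⟨_, Ultrafilter.compl_mem_iff_notMem.mpr h, fun n hn => hg4 n (p n) ?_⟩
    exact ρ.big_sub (compl_subset_compl.mpr (subset_iUnion (fun k => (p k).1.1) (n + 1))) hn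

theorem total (Y : ℕ × ℕ → Set ℕ) : ∃ b, ∀ c, ρ.big b (Y c) ∨ ρ.big b (Y c)ᶜ := by
  have h1 : ∀ c, ∃ b, ρ.big b (Y c) ∨ ρ.big b (Y c)ᶜ := fun c => by
    rcases UU.mem_or_compl_mem (Y c) with h | h
    · exact (ρ.ex_big _ h).imp fun b hb => Or.inl hb
    · exact (ρ.ex_big _ h).imp fun b hb => Or.inr hb
  choose f hf using h1
  obtain ⟨A, hA, hA'⟩ := ρ.not_cofinal fun n => f (Nat.unpair n)
  obtain ⟨b, hb⟩ := ρ.ex_big A hA
  refine ⟨b, fun c => ?_⟩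
  have hlt : ρ.lt (f c) b := ρ.lt_of _ _ A hb (by simpa using hA' (Nat.pair c.1 c.2))
  exact (hf c).imp (fun h => ρ.big_of_lt _ _ _ h hlt) (fun h => ρ.big_of_lt _ _ _ h hlt)

end PreRank

end Vale.Agent.P068
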