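import Mathlib
import Vale.Agent.P068.Columns
import Vale.Agent.P068.Ranks

/-! The tree of bundles and its vertex matroids. -/

open Set Filter

namespace Vale.Agent.P068

abbrev Vx := List (ℕ × ℕ)

abbrev Ed := (ℕ × ℕ) × Vx × ((ℕ × ℕ) × ℕ)

def sec (Y : Set ((ℕ × ℕ) × ℕ)) (c : ℕ × ℕ) : Set ℕ := {n | (c, n) ∈ Y}

def XX (w : Vx) (c : ℕ × ℕ) (Z : Set Ed) : Set ℕ :=
  {n | ∃ c₀ v, w = c₀ :: v ∧ (c₀, v, (c, n)) ∈ Z}

def YY (w : Vx) (c : ℕ × ℕ) (Z : Set Ed) : Set ((ℕ × ℕ) × ℕ) := {t | (c, w, t) ∉ Z}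

def star (w : Vx) : Set Ed := {e | e.2.1 = w ∨ e.1 :: e.2.1 = w}

def colm (w : Vx) (e : Ed) : ℕ × ℕ := if e.2.1 = w then e.1 else e.2.2.1

theorem sec_fin {Y Y' : Set ((ℕ × ℕ) × ℕ)} (h : (Y \ Y').Finite) (c : ℕ × ℕ) :
    (sec Y c \ sec Y' c).Finite :=
  (h.preimage (f := fun n => (c, n)) (fun _ _ _ _ h => (Prod.mk.inj h).2)).subset
    fun _ hn => hn

theorem XX_fin {w : Vx} {c : ℕ × ℕ} {X Y : Set Ed}
    (h : {e | e ∈ X ∧ e ∉ Y ∧ colm w e = c}.Finite) : (XX w c X \ XX w c Y).Finite := by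
  refine (h.image fun e => e.2.2.2).subset ?_
  rintro n ⟨⟨c₀, v, rfl, h1⟩, h2⟩
  refine ⟨(c₀, v, (c, n)), ⟨h1, fun h' => h2 ⟨c₀, v, rfl, h'⟩, ?_⟩, rfl⟩
  simp [colm]

theorem YY_fin {w : Vx} {c : ℕ × ℕ} {X Y : Set Ed}
    (h : {e | e ∈ X ∧ e ∉ Y ∧ colm w e = c}.Finite) : (YY w c Y \ YY w c X).Finite := by
  refine (h.image fun e => e.2.2).subset ?_
  rintro t ⟨h1, h2⟩
  refine ⟨(c, w, t), ⟨not_not.mp h2, h1, ?_⟩, rfl⟩
  simp [colm]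

namespace PreRank

variable (ρ : PreRank)

def UAt (Y : Set ((ℕ × ℕ) × ℕ)) (b : ρ.W) : Prop := Pos {c | ρ.big b (sec Y c)}

def DAt (Y : Set ((ℕ × ℕ) × ℕ)) (b : ρ.W) : Prop := ¬ Pos {c | ¬ ρ.big b (sec Y c)ᶜ}

theorem not_big_empty (b : ρ.W) : ¬ ρ.big b ∅ := fun h => by simpa using ρ.big_mem _ _ h

theorem UAt_mono {Y Y' : Set ((ℕ × ℕ) × ℕ)} {b : ρ.W} (h : (Y \ Y').Finite) (hY : ρ.UAt Y b) :
    ρ.UAt Y' b :=
  Pos.mono (fun c hc => ρ.big_mono _ _ _ (sec_fin h c) hc) hY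

theorem DAt_mono {Y Y' : Set ((ℕ × ℕ) × ℕ)} {b : ρ.W} (h : (Y' \ Y).Finite) (hY : ρ.DAt Y b) :
    ρ.DAt Y' b := fun h' => by
  refine hY (Pos.mono (fun c hc hb => ?_) h')
  exact hc (ρ.big_mono _ _ _ (by rw [compl_sdiff_compl]; exact sec_fin h c) hb)

theorem tot (Y : Set ((ℕ × ℕ) × ℕ)) : ∃ b, ρ.UAt Y b ∨ ρ.DAt Y b := by
  obtain ⟨b, hb⟩ := ρ.total (sec Y)
  refine ⟨b, or_iff_not_imp_left.mpr fun h h' => h (Pos.mono (fun c hc => ?_) h')⟩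
  exact (hb c).resolve_right hc

theorem not_UAt_empty (b : ρ.W) : ¬ ρ.UAt ∅ b := fun h => by
  obtain ⟨c, hc⟩ := Pos.nonempty h
  exact ρ.not_big_empty b hc

theorem not_DAt_univ (b : ρ.W) : ¬ ρ.DAt univ b := fun h =>
  h (pos_univ.mono fun c _ hc => ρ.not_big_empty b (by simpa [sec] using hc))

def Pl (w : Vx) (c : ℕ × ℕ) (Z : Set Ed) : Prop :=
  (w = [] ∨ XX w c Z ∈ UU) ∧ ∀ b, ρ.UAt (YY w c Z) b → ρ.big b (XX w c Z)

def Bz (w : Vx) (c : ℕ × ℕ) (Z : Set Ed) : Prop :=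
  (w = [] ∨ XX w c Z ∈ UU) ∨ ∃ b, ρ.DAt (YY w c Z) b ∧ ¬ ρ.big b (XX w c Z)ᶜ

theorem pass (w : Vx) (c : ℕ × ℕ) (L U : Set Ed) (hLU : L ⊆ U) (hL : ¬ ρ.Bz w c L)
    (hU : ρ.Bz w c U) : ∃ Z, L ⊆ Z ∧ Z ⊆ U ∧ ρ.Bz w c Z ∧ ¬ ρ.Pl w c Z := by
  have hw : w ≠ [] := fun h => hL (Or.inl (Or.inl h))
  have hXL : XX w c L ∉ UU := fun h => hL (Or.inl (Or.inr h))
  by_cases hXU : XX w c U ∈ UU
  swap
  · exact ⟨U, hLU, subset_rfl, hU, fun h => h.1.elim hw hXU⟩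
  have hsub : XX w c L ⊆ XX w c U := by
    rintro n ⟨c₀, v, h1, h2⟩; exact ⟨c₀, v, h1, hLU h2⟩
  have key : ∀ X, XX w c L ⊆ X → X ⊆ XX w c U →
      ∃ Z, L ⊆ Z ∧ Z ⊆ U ∧ XX w c Z = X ∧ YY w c Z = YY w c U := by
    intro X h1 h2
    refine ⟨{e | e ∈ U ∧ (e.1 :: e.2.1 = w → e.2.2.1 = c → e.2.2.2 ∈ X)}, ?_,
      fun e he => he.1, ?_, ?_⟩
    · rintro ⟨c₀, v, c', n⟩ he
      refine ⟨hLU he, ?_⟩
      rintro rfl rfl
      exact h1 ⟨c₀, v, rfl, he⟩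
    · ext n
      constructor
      · rintro ⟨c₀, v, rfl, h⟩
        exact h.2 rfl rfl
      · intro hn
        obtain ⟨c₀, v, rfl, h⟩ := h2 hn
        exact ⟨c₀, v, rfl, h, fun _ _ => hn⟩
    · ext t
      simp [YY]
  obtain ⟨b, hb | hb⟩ := ρ.tot (YY w c U)
  · obtain ⟨X, h1, h2, h3, h4⟩ := ρ.unb b _ _ hsub hXL hXU
    obtain ⟨Z, a1, a2, a3, a4⟩ := key X h1 h2
    exact ⟨Z, a1, a2, Or.inl (Or.inr (a3 ▸ h3)), fun h => h4 (a3 ▸ h.2 b (a4 ▸ hb))⟩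
  · obtain ⟨X, h1, h2, h3, h4⟩ := ρ.unb' b _ _ hsub hXL hXU
    obtain ⟨Z, a1, a2, a3, a4⟩ := key X h1 h2
    exact ⟨Z, a1, a2, Or.inr ⟨b, a4 ▸ hb, a3 ▸ h4⟩, fun h => h.1.elim hw (a3 ▸ h3)⟩

noncomputable def cols (w : Vx) : Cols Ed (star w) where
  col := colm w
  enc := Encodable.encode
  enc_inj := Encodable.encode_injective
  Pl := ρ.Pl w
  Bz := ρ.Bz w
  pl_bz := fun _ _ h => Or.inl h.1
  pl_mono := fun c X Y h hX => ⟨hX.1.imp_right (UU_mono (XX_fin h)),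
    fun b hb => ρ.big_mono _ _ _ (XX_fin h) (hX.2 b (ρ.UAt_mono (YY_fin h) hb))⟩
  bz_mono := fun c X Y h hX => hX.imp (Or.imp_right (UU_mono (XX_fin h))) fun ⟨b, h1, h2⟩ =>
    ⟨b, ρ.DAt_mono (YY_fin h) h1, fun h' => h2 (ρ.big_mono _ _ _
      (by rw [compl_sdiff_compl]; exact XX_fin h) h')⟩
  pass := ρ.pass w
  empty := fun c h => by
    obtain ⟨b, hb⟩ := ρ.ex_big univ univ_mem
    have := h.2 b (pos_univ.mono fun c' _ => by simpa [sec, YY] using hb)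
    exact ρ.not_big_empty b (by simpa [XX] using this)
  ground := fun c => by
    refine ⟨?_, fun b hb => absurd hb ?_⟩
    · rcases w with _ | ⟨c₀, v⟩
      · exact Or.inl rfl
      · refine Or.inr (mem_of_superset univ_mem fun n _ => ⟨c₀, v, rfl, Or.inr rfl⟩)
    · have : YY w c (star w) = ∅ := by ext t; simp [YY, star]
      rw [this]; exact ρ.not_UAt_empty b

theorem no_orientation (In : Vx → Set Ed) (W : Set Vx)
    (hIn : ∀ c v t, (c, v, t) ∈ In (c :: v) ↔ (c, v, t) ∉ In v)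
    (hW : ∀ w ∈ W, Pos {c | ρ.Bz w c (In w)} ∧ ∃ c, ρ.Pl w c (In w))
    (hN : ∀ w, w ∉ W → ¬ Pos {c | ρ.Pl w c (In w)})
    (h1 : ∀ c v t, v ∈ W → c :: v ∉ W → (c, v, t) ∉ In v)
    (h2 : ∀ c v t, v ∉ W → c :: v ∈ W → (c, v, t) ∈ In v) : False := by
  have hsec : ∀ c₀ v c, sec (YY v c₀ (In v)) c = XX (c₀ :: v) c (In (c₀ :: v)) := by
    intro c₀ v c
    ext n
    simp [sec, YY, XX, hIn]
  have hfull : ∀ c v b, v ∈ W → ρ.DAt (YY v c (In v)) b → c :: v ∈ W := by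
    intro c v b hv hb
    by_contra hc
    have : YY v c (In v) = univ := eq_univ_of_forall fun t => h1 c v t hv hc
    exact ρ.not_DAt_univ b (this ▸ hb)
  have hemp : ∀ c v b, v ∉ W → ρ.UAt (YY v c (In v)) b → c :: v ∉ W := by
    intro c v b hv hb hc
    have : YY v c (In v) = ∅ := eq_empty_of_forall_notMem fun t ht => ht (h2 c v t hv hc)
    exact ρ.not_UAt_empty b (this ▸ hb)
  have hD : ∀ b c v, c :: v ∈ W → ¬ ρ.DAt (YY v c (In v)) b := by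
    intro b
    induction b using ρ.wf.induction with
    | _ b ih =>
      intro c₀ v hw hb
      obtain ⟨c, hc, hc'⟩ : ∃ c, ρ.Bz (c₀ :: v) c (In (c₀ :: v)) ∧
          ρ.big b (XX (c₀ :: v) c (In (c₀ :: v)))ᶜ := by
        by_contra hcon
        refine hb (Pos.mono (fun c hc h => hcon ⟨c, hc, ?_⟩) (hW _ hw).1)
        rwa [hsec] at h
      rcases hc with (h | h) | ⟨b', h, h'⟩
      · simp at h
      · exact Ultrafilter.compl_mem_iff_notMem.mp (ρ.big_mem _ _ hc') h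
      · exact ih b' (ρ.lt_of _ _ _ hc' h') c _ (hfull _ _ _ hw h) h
  have hU : ∀ b c v, c :: v ∉ W → ¬ ρ.UAt (YY v c (In v)) b := by
    intro b
    induction b using ρ.wf.induction with
    | _ b ih =>
      intro c₀ v hw hb
      obtain ⟨c, hc, hc'⟩ : ∃ c, ¬ ρ.Pl (c₀ :: v) c (In (c₀ :: v)) ∧
          ρ.big b (XX (c₀ :: v) c (In (c₀ :: v))) := by
        by_contra hcon
        refine hN _ hw (Pos.mono (fun c h => ?_) hb)
        by_contra hc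
        refine hcon ⟨c, hc, ?_⟩
        rwa [mem_setOf_eq, hsec] at h
      obtain ⟨b', h, h'⟩ : ∃ b', ρ.UAt (YY (c₀ :: v) c (In (c₀ :: v))) b' ∧
          ¬ ρ.big b' (XX (c₀ :: v) c (In (c₀ :: v))) := by
        by_contra hcon
        push Not at hcon
        exact hc ⟨Or.inr (ρ.big_mem _ _ hc'), hcon⟩
      exact ih b' (ρ.lt_of _ _ _ hc' h') c _ (hemp _ _ _ hw h) h
  have hX : ∀ c Z, XX [] c Z = ∅ := fun c Z => by simp [XX]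
  by_cases hr : [] ∈ W
  · obtain ⟨c, hc⟩ := (hW _ hr).2
    obtain ⟨b, hb | hb⟩ := ρ.tot (YY [] c (In []))
    · exact ρ.not_big_empty b (hX c _ ▸ hc.2 b hb)
    · exact hD b c [] (hfull _ _ _ hr hb) hb
  · refine hN _ hr (pos_univ.mono fun c _ => ⟨Or.inl rfl, fun b hb => ?_⟩)
    exact absurd hb (hU b c [] (hemp _ _ _ hr hb))

end PreRank

theorem exists_vertex_matroids : ∃ N : Vx → Matroid Ed, (∀ w, (N w).E = star w) ∧
    (∀ w X, X ⊆ star w → (N w).Indep X ∨ (N w).Spanning X) ∧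
    ∀ (In : Vx → Set Ed) (W : Set Vx),
      (∀ c v t, (c, v, t) ∈ In (c :: v) ↔ (c, v, t) ∉ In v) →
      (∀ w ∈ W, ∃ S, S ⊆ In w ∧ (N w).Spanning S) →
      (∀ w, w ∉ W → ∃ I, In w ⊆ I ∧ (N w).Indep I) →
      (∀ c v t, v ∈ W → c :: v ∉ W → (c, v, t) ∉ In v) →
      (∀ c v t, v ∉ W → c :: v ∈ W → (c, v, t) ∈ In v) → False := by
  obtain ⟨ρ⟩ := exists_preRank
  choose N h1 h2 h3 h4 using fun w => (ρ.cols w).exists_matroid
  refine ⟨N, h1, h2, fun In W hIn hW hN a1 a2 => ρ.no_orientation In W hIn ?_ ?_ a1 a2⟩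
  · intro w hw
    obtain ⟨S, hS, hS'⟩ := hW w hw
    obtain ⟨b1, c, b2⟩ := h4 w S hS'
    exact ⟨b1.mono fun c hc => (ρ.cols w).bz_sub (fun e he _ => hS he) hc,
      c, (ρ.cols w).pl_sub (fun e he _ => hS he) b2⟩
  · intro w hw h
    obtain ⟨I, hI, hI'⟩ := hN w hw
    exact h3 w I hI' (h.mono fun c hc => (ρ.cols w).pl_sub (fun e he _ => hI he) hc)

end Vale.Agent.P068
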