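import Mathlib
import Vale.Agent.P068.Tree

/-! The two partitional matroids. -/

open Set Filter Function
open scoped Matroid

namespace Vale.Agent.P068

/-- normal form of a packing/covering partition of two matroids on `univ` -/
def PC2 {α : Type*} (M : Bool → Matroid α) : Prop :=
  ∃ (P : Set α) (J I : Bool → Set α), (∀ b, (M b).IsBasis (J b) P) ∧
    Disjoint (J false) (J true) ∧ (∀ b, Disjoint P (I b)) ∧ (∀ b, (M b).Indep (J b ∪ I b)) ∧
    ∀ e, e ∈ P ∨ e ∈ I false ∨ e ∈ I true

theorem unif_insert {α : Type*} {M : Matroid α} (h : ∀ X, X ⊆ M.E → M.Indep X ∨ M.Spanning X)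
    {X : Set α} (hX : M.Indep X) (hs : ¬ M.Spanning X) {e : α} (he : e ∈ M.E) :
    M.Indep (insert e X) := by
  have hsub : insert e X ⊆ M.E := insert_subset he hX.subset_ground
  by_contra hd
  have h1 := (h _ hsub).resolve_left hd
  have h2 : e ∈ M.closure X := hX.mem_closure_iff.mpr (Or.inl ⟨hd, hsub⟩)
  refine hs ⟨?_, hX.subset_ground⟩
  rw [← Matroid.closure_insert_eq_of_mem_closure h2, h1.closure_eq]

def par (w : Vx) : Bool := w.length.bodd

theorem par_cons (c : ℕ × ℕ) (v : Vx) : par (c :: v) = !par v := by simp [par]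

theorem star_eq {w w' : Vx} {e : Ed} (h : par w = par w') (h1 : e ∈ star w) (h2 : e ∈ star w') :
    w = w' := by
  rcases h1 with rfl | rfl <;> rcases h2 with rfl | rfl
  · rfl
  · simp [par_cons] at h
  · simp [par_cons] at h
  · rfl

theorem exists_sum (N : Vx → Matroid Ed) (hE : ∀ w, (N w).E = star w) (b : Bool) :
    ∃ M : Matroid Ed, M.E = univ ∧
      ∀ I, M.Indep I ↔ ∀ w, par w = b → (N w).Indep (I ∩ star w) := by
  have hd : Pairwise (Disjoint on fun w : {w : Vx // par w = b} => (N w.1).E) := by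
    intro w w' hne
    simp only [onFun, hE]
    exact Set.disjoint_left.mpr fun e h1 h2 =>
      hne (Subtype.ext (star_eq (w.2.trans w'.2.symm) h1 h2))
  have hu : (⋃ w : {w : Vx // par w = b}, (N w.1).E) = univ := by
    refine eq_univ_of_forall fun e => ?_
    simp only [mem_iUnion, hE]
    by_cases h : par e.2.1 = b
    · exact ⟨⟨_, h⟩, Or.inl rfl⟩
    · exact ⟨⟨e.1 :: e.2.1, by rw [par_cons]; cases b <;> simpa using h⟩, Or.inr rfl⟩
  refine ⟨Matroid.disjointSigma (fun w : {w : Vx // par w = b} => N w.1) hd, ?_, fun I => ?_⟩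
  · rw [Matroid.disjointSigma_ground_eq, hu]
  · rw [Matroid.disjointSigma_indep_iff, hu]
    simp [hE]

theorem exists_not_PC2 : ∃ M : Bool → Matroid Ed, (∀ b, (M b).E = univ) ∧ ¬ PC2 M := by
  classical
  obtain ⟨N, hE, hunif, hno⟩ := exists_vertex_matroids
  choose M hM hI using exists_sum N hE
  refine ⟨M, hM, ?_⟩
  rintro ⟨P, J, I, hJ, hJJ, hPI, hJI, hall⟩
  have hA : ∀ w, ¬ (N w).Spanning (J (par w) ∩ star w) → ∀ e ∈ P, e ∈ star w → e ∈ J (par w) := by
    intro w hw e heP he
    by_contra heJ
    refine ((hJ (par w)).insert_dep ⟨heP, heJ⟩).not_indep ((hI _ _).mpr fun w' hw' => ?_)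
    have h0 := (hI _ _).mp (hJ (par w)).indep w' hw'
    by_cases hww : w' = w
    · subst hww
      rw [insert_inter_of_mem he]
      exact unif_insert (by simpa only [hE] using hunif w') h0 hw (hE w' ▸ he)
    · rwa [insert_inter_of_notMem fun h => hww (star_eq hw' h he)]
  have hB : ∀ w, (N w).Spanning (J (par w) ∩ star w) → ∀ e ∈ star w, e ∉ I (par w) := by
    intro w hw e he heI
    have h0 := (hI _ _).mp (hJI (par w)) w rfl
    have := h0.eq_of_spanning_subset hw (inter_subset_inter_left _ subset_union_left)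
    have heJ : e ∈ J (par w) ∩ star w := this ▸ ⟨Or.inr heI, he⟩
    exact Set.disjoint_left.mp (hPI _) ((hJ _).subset heJ.1) heI
  let dir : Ed → Bool := fun e => decide (e ∉ J false ∪ I false)
  have hd1 : ∀ b e, e ∈ J b → dir e = b := by
    intro b e he
    cases b
    · simp [dir, he]
    · simp only [dir, mem_union, not_or, decide_eq_true_eq]
      exact ⟨fun h => Set.disjoint_left.mp hJJ h he,
        fun h => Set.disjoint_left.mp (hPI _) ((hJ _).subset he) h⟩
  have hd2 : ∀ b e, e ∉ P → e ∉ I b → dir e = !b := by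
    intro b e he h
    cases b
    · simp only [dir, mem_union, not_or, Bool.not_false, decide_eq_true_eq]
      exact ⟨fun h' => he ((hJ _).subset h'), h⟩
    · have : e ∈ I false := ((hall e).resolve_left he).resolve_right h
      simp [dir, this]
  have hcut : ∀ w w' e, e ∈ star w → e ∈ star w' → par w' = !par w →
      (N w).Spanning (J (par w) ∩ star w) → ¬ (N w').Spanning (J (par w') ∩ star w') →
      dir e = par w' := by
    intro w w' e h1 h2 hp a1 a2
    by_cases he : e ∈ P
    · exact hd1 _ _ (hA w' a2 e he h2)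
    · rw [hp]; exact hd2 _ _ he (hB w a1 e h1)
  refine hno (fun w => {e | e ∈ star w ∧ dir e = par w})
    {w | (N w).Spanning (J (par w) ∩ star w)} ?_ ?_ ?_ ?_ ?_
  · intro c v t
    simp only [star, mem_setOf_eq, or_true, true_or, true_and, par_cons]
    cases dir (c, v, t) <;> cases par v <;> simp
  · exact fun w hw => ⟨_, fun e he => ⟨he.2, hd1 _ _ he.1⟩, hw⟩
  · refine fun w hw => ⟨(J (par w) ∪ I (par w)) ∩ star w, fun e he => ⟨?_, he.1⟩,
      (hI _ _).mp (hJI (par w)) w rfl⟩
    by_cases heP : e ∈ P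
    · exact Or.inl (hA w hw e heP he.1)
    · by_contra h
      have := hd2 (par w) e heP (fun h' => h (Or.inr h'))
      rw [he.2] at this
      simp at this
  · intro c v t hv hc h
    have := hcut v (c :: v) (c, v, t) (Or.inl rfl) (Or.inr rfl) (par_cons _ _) hv hc
    rw [h.2, par_cons] at this
    simp at this
  · intro c v t hv hc
    exact ⟨Or.inl rfl,
      hcut (c :: v) v (c, v, t) (Or.inr rfl) (Or.inl rfl) (by simp [par_cons]) hc hv⟩

theorem PC2_of_pc {α : Type*} {M : Bool → Matroid α} (hM : ∀ b, (M b).E = univ)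
    {P C : Set α} {S I : Bool → Set α} (hd : Disjoint P C) (hu : P ∪ C = univ)
    (hS : ∀ i, S i ⊆ P) (hSS : Pairwise (Disjoint on S))
    (hcl : ∀ i, ((M i) ↾ P).closure (S i) = P)
    (hI : ∀ i, (((M i)✶ ↾ C)✶).Indep (I i)) (hC : (⋃ i, I i) = C) : PC2 M := by
  have hb : ∀ b, ∃ J, J ⊆ S b ∧ (M b).IsBasis J P := by
    intro b
    obtain ⟨J, hJ⟩ := (M b).exists_isBasis (S b) (by simp [hM])
    refine ⟨J, hJ.subset, hJ.indep.isBasis_of_subset_of_subset_closure (hJ.subset.trans (hS b)) ?_⟩
    have := hcl b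
    rw [Matroid.restrict_closure_eq _ (hS b) (by simp [hM]), inter_eq_right] at this
    rwa [hJ.closure_eq_closure]
  choose J hJS hJ using hb
  have hCP : C = univ \ P := by
    ext x
    have := hu ▸ mem_univ x
    constructor
    · exact fun h => ⟨trivial, fun h' => Set.disjoint_left.mp hd h' h⟩
    · exact fun h => this.resolve_left h.2
  have hc : ∀ b, ((M b) ／ P).Indep (I b) := by
    intro b
    have := hI b
    rwa [hCP, ← hM b] at this
  refine ⟨P, J, I, hJ, (hSS (by simp)).mono (hJS _) (hJS _), fun b => ?_, fun b => ?_, fun e => ?_⟩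
  · exact ((hJ b).contract_indep_iff.mp (hc b)).2
  · rw [union_comm]; exact ((hJ b).contract_indep_iff.mp (hc b)).1
  · rcases (hu ▸ mem_univ e : e ∈ P ∪ C) with h | h
    · exact Or.inl h
    · rw [← hC, mem_iUnion] at h
      obtain ⟨b, hb⟩ := h
      cases b
      · exact Or.inr (Or.inl hb)
      · exact Or.inr (Or.inr hb)

theorem PC2_of_inter {α : Type*} {M : Bool → Matroid α} (hM : ∀ b, (M b).E = univ)
    {A B : Set α} (hd : Disjoint A B) (h0 : (M false).Indep (A ∪ B))
    (h1 : (M true)✶.Indep (A ∪ B))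
    (hcl : (M false).closure A ∪ (M true)✶.closure B = univ) : PC2 M := by
  obtain ⟨D, hD, hAB⟩ := h1.exists_isBase_superset
  have hA : (M false).Indep A := h0.subset subset_union_left
  have hBP : ∀ e ∈ B, e ∉ (M false).closure A := by
    intro e he h
    rcases hA.mem_closure_iff.mp h with h | h
    · exact h.not_indep (h0.subset (insert_subset (Or.inr he) subset_union_left))
    · exact Set.disjoint_left.mp hd h he
  have hDc : (M true).IsBase (univ \ D) := by
    have := hD.compl_isBase_of_dual
    rwa [hM] at this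
  have hkey : ∀ e ∈ D, e ∉ B → ∀ x, x ∉ (M false).closure A →
      x ∈ (M true)✶.closure (D \ {e}) := by
    intro e _ heB x hx
    have h5 : x ∈ (M false).closure A ∪ (M true)✶.closure B := hcl ▸ mem_univ x
    have h6 : B ⊆ D \ {e} := fun y hy => ⟨hAB (Or.inr hy), by rintro rfl; exact heB hy⟩
    exact (M true)✶.closure_subset_closure h6 (h5.resolve_left hx)
  refine ⟨(M false).closure A, fun b => bif b then (M false).closure A \ D else A,
    fun b => bif b then ((M false).closure A)ᶜ \ B else B, ?_, ?_, ?_, ?_, ?_⟩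
  · rintro (_ | _)
    · exact hA.isBasis_closure
    · have hi : (M true).Indep ((M false).closure A \ D) :=
        hDc.indep.subset fun x hx => ⟨trivial, hx.2⟩
      refine hi.isBasis_of_forall_insert sdiff_subset fun e he => ⟨fun hind => ?_, by simp [hM]⟩
      have heD : e ∈ D := by by_contra h; exact he.2 ⟨he.1, h⟩
      have hco : (M true)✶.Coindep (insert e ((M false).closure A \ D)) := by
        simpa [Matroid.Coindep] using hind
      have hsp := hco.compl_spanning
      refine hD.indep.notMem_closure_sdiff_of_mem heD ?_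
      have h3 : (M true)✶.E \ insert e ((M false).closure A \ D) ⊆
          (M true)✶.closure (D \ {e}) := by
        intro x hx
        by_cases hxD : x ∈ D
        · exact (M true)✶.subset_closure _ (by simp [hM]) ⟨hxD, fun h => hx.2 (Or.inl h)⟩
        · exact hkey e heD (fun h => hBP e h he.1) x fun h => hx.2 (Or.inr ⟨h, hxD⟩)
      have h4 := (M true)✶.closure_subset_closure_of_subset_closure h3
      rw [hsp.closure_eq] at h4
      exact h4 (by simp [hM])
  · exact Set.disjoint_left.mpr fun x hx hx' => hx'.2 (hAB (Or.inl hx))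
  · rintro (_ | _)
    · exact Set.disjoint_left.mpr fun x hx hx' => hBP x hx' hx
    · exact Set.disjoint_left.mpr fun x hx hx' => hx'.1 hx
  · rintro (_ | _)
    · exact h0
    · refine hDc.indep.subset ?_
      rintro x (hx | hx)
      · exact ⟨trivial, hx.2⟩
      · exact ⟨trivial, fun hxD =>
          hD.indep.notMem_closure_sdiff_of_mem hxD (hkey x hxD hx.2 x hx.1)⟩
  · intro e
    by_cases h : e ∈ (M false).closure A
    · exact Or.inl h
    · by_cases h' : e ∈ B
      · exact Or.inr (Or.inl h')
      · exact Or.inr (Or.inr ⟨h, h'⟩)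

end Vale.Agent.P068
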